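import Mathlib
import Vale.Agent.Lib.P100.Singular
import Vale.Agent.Lib.P100.Rad.Core
import Vale.Agent.Lib.P100.Rad.Bridge
import Vale.Agent.Lib.P100.Sup.Main
open Filter Topology InnerProductSpace Laplacian

namespace Vale.Agent.Results.P100.Combined

/-- `(u, v)` is a positive entire solution of the Henon-Lane-Emden system
`-Δ u = |x|^A v^p`, `-Δ v = |x|^B u^q` in `ℝ^n \ {0}`:
`u, v` are `C^2` on `ℝ^n \ {0}`, continuous on `ℝ^n`, positive everywhere, and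
both equations hold at every `x ≠ 0`. -/
structure IsPositiveEntireSolution (n : ℕ) (p q A B : ℝ)
    (u v : EuclideanSpace ℝ (Fin n) → ℝ) : Prop where
  contDiffOn_u : ContDiffOn ℝ 2 u {0}ᶜ
  contDiffOn_v : ContDiffOn ℝ 2 v {0}ᶜ
  continuous_u : Continuous u
  continuous_v : Continuous v
  pos_u : ∀ x, 0 < u x
  pos_v : ∀ x, 0 < v x
  eq_u : ∀ x, x ≠ 0 → -(Δ u x) = ‖x‖ ^ A * v x ^ p
  eq_v : ∀ x, x ≠ 0 → -(Δ v x) = ‖x‖ ^ B * u x ^ q

/-- a function on `ℝ^n` is radial if it depends on `|x|` only -/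
def IsRadial {n : ℕ} (u : EuclideanSpace ℝ (Fin n) → ℝ) : Prop :=
  ∀ x y, ‖x‖ = ‖y‖ → u x = u y

/-- both components radial, regular weights, `n ≥ 3` -/
lemma aux_radial (n : ℕ) (hn3 : 3 ≤ n) (p q A B : ℝ) (hp : 0 < p) (hq : 0 < q)
    (hA : -2 < A) (hB : -2 < B)
    (hsub : (n : ℝ) - 2 < (n + A) / (p + 1) + (n + B) / (q + 1))
    (u v : EuclideanSpace ℝ (Fin n) → ℝ) (hs : IsPositiveEntireSolution n p q A B u v)
    (hru : IsRadial u) (hrv : IsRadial v) : False := by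
  have hu' : ∀ x, x ≠ 0 → ContDiffAt ℝ 2 u x := fun x hx =>
    (hs.contDiffOn_u x hx).contDiffAt (isOpen_compl_singleton.mem_nhds hx)
  have hv' : ∀ x, x ≠ 0 → ContDiffAt ℝ 2 v x := fun x hx =>
    (hs.contDiffOn_v x hx).contDiffAt (isOpen_compl_singleton.mem_nhds hx)
  set e : EuclideanSpace ℝ (Fin n) := EuclideanSpace.single ⟨0, by omega⟩ (1 : ℝ) with he
  have hen : ‖e‖ = 1 := by simp [he]
  obtain ⟨φ, hφ⟩ := Vale.Agent.P100.Rad.radial_reduction hu' hru hen hs.eq_u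
  obtain ⟨ψ, hψ⟩ := Vale.Agent.P100.Rad.radial_reduction hv' hrv hen hs.eq_v
  have hfr : (Module.finrank ℝ (EuclideanSpace ℝ (Fin n)) : ℝ) = n := by simp
  rw [hfr] at hφ hψ
  obtain ⟨z, -, hz⟩ := (isCompact_closedBall (0 : EuclideanSpace ℝ (Fin n)) 1).exists_isMaxOn
    ⟨0, by simp⟩ hs.continuous_u.continuousOn
  obtain ⟨w, -, hw⟩ := (isCompact_closedBall (0 : EuclideanSpace ℝ (Fin n)) 1).exists_isMaxOn
    ⟨0, by simp⟩ hs.continuous_v.continuousOn
  have hmem : ∀ r : ℝ, 0 < r → r ≤ 1 →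
      r • e ∈ Metric.closedBall (0 : EuclideanSpace ℝ (Fin n)) 1 := by
    intro r hr hr1
    simp [norm_smul, hen, abs_of_pos hr, hr1]
  refine Vale.Agent.P100.Rad.radial_core (N := n) (p := p) (q := q) (A := A) (B := B)
    (U := fun t => u (t • e)) (V := fun t => v (t • e)) (φ := φ) (ψ := ψ)
    (M := max (u z) (v w)) (by exact_mod_cast hn3) hp hq hA hB hsub
    (fun r _ => hs.pos_u _) (fun r _ => hs.pos_v _)
    (fun r hr => (hφ r hr).1) (fun r hr => (hψ r hr).1)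
    (fun r hr => (hφ r hr).2) (fun r hr => (hψ r hr).2) ?_ ?_
  · intro r hr hr1
    exact le_max_of_le_left (hz (hmem r hr hr1))
  · intro r hr hr1
    exact le_max_of_le_right (hw (hmem r hr hr1))

/-- **Cases of the Henon-Lane-Emden conjecture.** Let `n ≥ 2`, `p, q > 0`, `A, B` real,
subcritical. A positive entire solution `(u, v)` cannot exist in any of the following cases:
`n = 2`; `A ≤ -2`; `B ≤ -2`; `(n-2)(pq-1) ≤ 2+A+p(2+B)`; `(n-2)(pq-1) ≤ 2+B+q(2+A)`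
(together: `pq ≤ 1` or `max (α, β) ≥ n - 2`); `u` radial; `v` radial. -/
theorem result (n : ℕ) (hn : 2 ≤ n) (p q A B : ℝ) (hp : 0 < p) (hq : 0 < q)
    (hsub : (n : ℝ) - 2 < (n + A) / (p + 1) + (n + B) / (q + 1))
    (u v : EuclideanSpace ℝ (Fin n) → ℝ) (hs : IsPositiveEntireSolution n p q A B u v) :
    3 ≤ n ∧ -2 < A ∧ -2 < B ∧ 1 < p * q ∧
      (2 + A) + p * (2 + B) < ((n : ℝ) - 2) * (p * q - 1) ∧
      (2 + B) + q * (2 + A) < ((n : ℝ) - 2) * (p * q - 1) ∧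
      ¬ IsRadial u ∧ ¬ IsRadial v := by
  have hu' : ∀ x, x ≠ 0 → ContDiffAt ℝ 2 u x := fun x hx =>
    (hs.contDiffOn_u x hx).contDiffAt (isOpen_compl_singleton.mem_nhds hx)
  have hv' : ∀ x, x ≠ 0 → ContDiffAt ℝ 2 v x := fun x hx =>
    (hs.contDiffOn_v x hx).contDiffAt (isOpen_compl_singleton.mem_nhds hx)
  have h1 : ¬ (n = 2 ∨ A ≤ -2) := fun h =>
    Vale.Agent.P100.no_solution_plane_or_singular n hn p A h u v hs.contDiffOn_u
      hs.continuous_u hs.continuous_v hs.pos_u hs.pos_v hs.eq_u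
  have h2 : ¬ B ≤ -2 := fun h =>
    Vale.Agent.P100.no_solution_plane_or_singular n hn q B (Or.inr h) v u hs.contDiffOn_v
      hs.continuous_v hs.continuous_u hs.pos_v hs.pos_u hs.eq_v
  push Not at h1 h2
  have hn3 : 3 ≤ n := by
    have := h1.1
    omega
  have hfr : (Module.finrank ℝ (EuclideanSpace ℝ (Fin n)) : ℝ) = n := by simp
  have h3 : ¬ (((n : ℝ) - 2) * (p * q - 1) ≤ (2 + A) + p * (2 + B) ∨
      ((n : ℝ) - 2) * (p * q - 1) ≤ (2 + B) + q * (2 + A)) := fun h =>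
    Vale.Agent.P100.Sup.no_supersolution (E := EuclideanSpace ℝ (Fin n)) (by simpa using hn3)
      hp hq h1.2 h2 (by rw [hfr]; exact h) hu' hv' (fun x _ => hs.pos_u x) (fun x _ => hs.pos_v x)
      (fun x hx => (hs.eq_u x hx).ge) (fun x hx => (hs.eq_v x hx).ge)
  push Not at h3
  have hpq : 1 < p * q := by
    by_contra hle
    push Not at hle
    have hn' : (3 : ℝ) ≤ n := by exact_mod_cast hn3
    have t1 : ((n : ℝ) - 2) * (p * q - 1) ≤ 0 :=
      mul_nonpos_of_nonneg_of_nonpos (by linarith) (by linarith)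
    have t2 : 0 < p * (2 + B) := mul_pos hp (by linarith)
    linarith [h3.1, h1.2]
  set e : EuclideanSpace ℝ (Fin n) := EuclideanSpace.single ⟨0, by omega⟩ (1 : ℝ) with he
  have hen : ‖e‖ = 1 := by simp [he]
  refine ⟨hn3, h1.2, h2, hpq, h3.1, h3.2, ?_, ?_⟩
  · intro hr
    exact aux_radial n hn3 p q A B hp hq h1.2 h2 hsub u v hs hr
      (Vale.Agent.P100.Rad.radial_of_radial hp.ne' hu' hr hen hs.pos_v hs.eq_u)
  · intro hr
    exact aux_radial n hn3 p q A B hp hq h1.2 h2 hsub u v hs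
      (Vale.Agent.P100.Rad.radial_of_radial hq.ne' hv' hr hen hs.pos_u hs.eq_v) hr

end Vale.Agent.Results.P100.Combined
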