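import Mathlib
import Vale.Agent.Lib.P100.Barriers
open Filter Topology InnerProductSpace Laplacian

namespace Vale.Agent.Results.P100.PlaneSingular

/-- `(u, v)` is a positive entire solution of the Henon-Lane-Emden system
`-Δ u = |x|^A v^p`, `-Δ v = |x|^B u^q` in `ℝ^n \ {0}`:
`u, v` are `C^2` on `ℝ^n \ {0}`, continuous on `ℝ^n`, positive everywhere, and
both equations hold at every `x ≠ 0`. -/
structure IsPositiveEntireSolution (n : ℕ) (p q A B : ℝ)
    (u v : EuclideanSpace ℝ (Fin n) → ℝ) : Prop where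
  contDiffOn_u : ContDiffOn ℝ 2 u {0}ᶜ
  contDiffOn_v : ContDiffOn ℝ 2 v {0}ᶜ
  continuous_u : Continuous u
  continuous_v : Continuous v
  pos_u : ∀ x, 0 < u x
  pos_v : ∀ x, 0 < v x
  eq_u : ∀ x, x ≠ 0 → -(Δ u x) = ‖x‖ ^ A * v x ^ p
  eq_v : ∀ x, x ≠ 0 → -(Δ v x) = ‖x‖ ^ B * u x ^ q

/-- one half of the argument, symmetric in the two equations -/
lemma aux (n : ℕ) (hn : 2 ≤ n) (p A : ℝ) (h : n = 2 ∨ A ≤ -2)
    (u v : EuclideanSpace ℝ (Fin n) → ℝ)
    (hu : ContDiffOn ℝ 2 u {0}ᶜ) (hcu : Continuous u) (hcv : Continuous v)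
    (hpu : ∀ x, 0 < u x) (hpv : ∀ x, 0 < v x)
    (heq : ∀ x, x ≠ 0 → -(Δ u x) = ‖x‖ ^ A * v x ^ p) : False := by
  have hu' : ∀ x, x ≠ 0 → ContDiffAt ℝ 2 u x := fun x hx =>
    (hu x hx).contDiffAt (isOpen_compl_singleton.mem_nhds hx)
  have hneg : ∀ x, x ≠ 0 → Δ u x < 0 := by
    intro x hx
    have h1 : 0 < ‖x‖ ^ A * v x ^ p :=
      mul_pos (Real.rpow_pos_of_pos (norm_pos_iff.mpr hx) _) (Real.rpow_pos_of_pos (hpv x) _)
    linarith [heq x hx]
  by_cases h2 : n = 2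
  · exact Vale.Agent.P100.no_pos_superharmonic_punctured_plane (by simp [h2]) u hu'
      (fun x _ => hpu x) hneg
  · have hA : A ≤ -2 := h.resolve_left h2
    have hn3 : 3 ≤ n := by omega
    obtain ⟨y, -, hy⟩ := (isCompact_closedBall (0 : EuclideanSpace ℝ (Fin n)) 1).exists_isMinOn
      ⟨0, by simp⟩ hcv.continuousOn
    have hc₀ : 0 < v y ^ p := Real.rpow_pos_of_pos (hpv y) _
    by_cases hp : 0 ≤ p
    · refine Vale.Agent.P100.no_inverse_square_source (by simpa using hn3) u hu'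
        hcu.continuousAt (fun x _ => hpu x) hc₀ ?_
      intro x hx hx1
      have hxn : 0 < ‖x‖ := norm_pos_iff.mpr hx
      have h3 : v y ^ p ≤ v x ^ p :=
        Real.rpow_le_rpow (hpv y).le (hy (by simpa using hx1.le)) hp
      have h4 : ‖x‖ ^ (-2 : ℝ) ≤ ‖x‖ ^ A := Real.rpow_le_rpow_of_exponent_ge hxn hx1.le hA
      have h5 : ‖x‖ ^ (-2 : ℝ) = 1 / ‖x‖ ^ 2 := by
        rw [Real.rpow_neg hxn.le]
        simp
      have h6 : v y ^ p / ‖x‖ ^ 2 ≤ ‖x‖ ^ A * v x ^ p := by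
        calc v y ^ p / ‖x‖ ^ 2 = ‖x‖ ^ (-2 : ℝ) * v y ^ p := by rw [h5]; ring
          _ ≤ ‖x‖ ^ A * v x ^ p :=
            mul_le_mul h4 h3 hc₀.le (Real.rpow_pos_of_pos hxn _).le
      linarith [heq x hx]
    · -- for negative `p` use the maximum of `v` on the closed unit ball
      obtain ⟨z, -, hz⟩ := (isCompact_closedBall (0 : EuclideanSpace ℝ (Fin n)) 1).exists_isMaxOn
        ⟨0, by simp⟩ hcv.continuousOn
      have hc₁ : 0 < v z ^ p := Real.rpow_pos_of_pos (hpv z) _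
      refine Vale.Agent.P100.no_inverse_square_source (by simpa using hn3) u hu'
        hcu.continuousAt (fun x _ => hpu x) hc₁ ?_
      intro x hx hx1
      have hxn : 0 < ‖x‖ := norm_pos_iff.mpr hx
      have h3 : v z ^ p ≤ v x ^ p :=
        Real.rpow_le_rpow_of_nonpos (hpv x) (hz (by simpa using hx1.le)) (not_le.mp hp).le
      have h4 : ‖x‖ ^ (-2 : ℝ) ≤ ‖x‖ ^ A := Real.rpow_le_rpow_of_exponent_ge hxn hx1.le hA
      have h5 : ‖x‖ ^ (-2 : ℝ) = 1 / ‖x‖ ^ 2 := by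
        rw [Real.rpow_neg hxn.le]
        simp
      have h6 : v z ^ p / ‖x‖ ^ 2 ≤ ‖x‖ ^ A * v x ^ p := by
        calc v z ^ p / ‖x‖ ^ 2 = ‖x‖ ^ (-2 : ℝ) * v z ^ p := by rw [h5]; ring
          _ ≤ ‖x‖ ^ A * v x ^ p :=
            mul_le_mul h4 h3 hc₁.le (Real.rpow_pos_of_pos hxn _).le
      linarith [heq x hx]

/-- The Henon-Lane-Emden system has no positive entire solution when `n = 2` (all real
`p, q, A, B`), and in every dimension `n ≥ 2` when `A ≤ -2` or `B ≤ -2`. -/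
theorem result (n : ℕ) (hn : 2 ≤ n) (p q A B : ℝ) (h : n = 2 ∨ A ≤ -2 ∨ B ≤ -2) :
    ¬ ∃ u v : EuclideanSpace ℝ (Fin n) → ℝ, IsPositiveEntireSolution n p q A B u v := by
  rintro ⟨u, v, hs⟩
  rcases h with h | h | h
  · exact aux n hn p A (Or.inl h) u v hs.contDiffOn_u hs.continuous_u hs.continuous_v
      hs.pos_u hs.pos_v hs.eq_u
  · exact aux n hn p A (Or.inr h) u v hs.contDiffOn_u hs.continuous_u hs.continuous_v
      hs.pos_u hs.pos_v hs.eq_u
  · exact aux n hn q B (Or.inr h) v u hs.contDiffOn_v hs.continuous_v hs.continuous_u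
      hs.pos_v hs.pos_u hs.eq_v

end Vale.Agent.Results.P100.PlaneSingular
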