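import Mathlib
import Vale.Agent.Lib.P100.Singular
import Vale.Agent.Lib.P100.Rad.Core
import Vale.Agent.Lib.P100.Rad.Bridge
open Filter Topology InnerProductSpace Laplacian

namespace Vale.Agent.Results.P100.Radial

/-- `(u, v)` is a positive entire solution of the Henon-Lane-Emden system
`-Δ u = |x|^A v^p`, `-Δ v = |x|^B u^q` in `ℝ^n \ {0}`:
`u, v` are `C^2` on `ℝ^n \ {0}`, continuous on `ℝ^n`, positive everywhere, and
both equations hold at every `x ≠ 0`. -/
structure IsPositiveEntireSolution (n : ℕ) (p q A B : ℝ)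
    (u v : EuclideanSpace ℝ (Fin n) → ℝ) : Prop where
  contDiffOn_u : ContDiffOn ℝ 2 u {0}ᶜ
  contDiffOn_v : ContDiffOn ℝ 2 v {0}ᶜ
  continuous_u : Continuous u
  continuous_v : Continuous v
  pos_u : ∀ x, 0 < u x
  pos_v : ∀ x, 0 < v x
  eq_u : ∀ x, x ≠ 0 → -(Δ u x) = ‖x‖ ^ A * v x ^ p
  eq_v : ∀ x, x ≠ 0 → -(Δ v x) = ‖x‖ ^ B * u x ^ q

/-- a function on `ℝ^n` is radial if it depends on `|x|` only -/
def IsRadial {n : ℕ} (u : EuclideanSpace ℝ (Fin n) → ℝ) : Prop :=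
  ∀ x y, ‖x‖ = ‖y‖ → u x = u y

/-- both components radial -/
lemma aux (n : ℕ) (hn : 2 ≤ n) (p q A B : ℝ) (hp : 0 < p) (hq : 0 < q)
    (hsub : (n : ℝ) - 2 < (n + A) / (p + 1) + (n + B) / (q + 1))
    (u v : EuclideanSpace ℝ (Fin n) → ℝ) (hs : IsPositiveEntireSolution n p q A B u v)
    (hru : IsRadial u) (hrv : IsRadial v) : False := by
  by_cases h : n = 2 ∨ A ≤ -2
  · exact Vale.Agent.P100.no_solution_plane_or_singular n hn p A h u v hs.contDiffOn_u
      hs.continuous_u hs.continuous_v hs.pos_u hs.pos_v hs.eq_u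
  by_cases h' : B ≤ -2
  · exact Vale.Agent.P100.no_solution_plane_or_singular n hn q B (Or.inr h') v u hs.contDiffOn_v
      hs.continuous_v hs.continuous_u hs.pos_v hs.pos_u hs.eq_v
  push Not at h h'
  have hn3 : 3 ≤ n := by
    have := h.1
    omega
  have hu' : ∀ x, x ≠ 0 → ContDiffAt ℝ 2 u x := fun x hx =>
    (hs.contDiffOn_u x hx).contDiffAt (isOpen_compl_singleton.mem_nhds hx)
  have hv' : ∀ x, x ≠ 0 → ContDiffAt ℝ 2 v x := fun x hx =>
    (hs.contDiffOn_v x hx).contDiffAt (isOpen_compl_singleton.mem_nhds hx)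
  set e : EuclideanSpace ℝ (Fin n) := EuclideanSpace.single ⟨0, by omega⟩ (1 : ℝ) with he
  have hen : ‖e‖ = 1 := by simp [he]
  obtain ⟨φ, hφ⟩ := Vale.Agent.P100.Rad.radial_reduction hu' hru hen hs.eq_u
  obtain ⟨ψ, hψ⟩ := Vale.Agent.P100.Rad.radial_reduction hv' hrv hen hs.eq_v
  have hfr : (Module.finrank ℝ (EuclideanSpace ℝ (Fin n)) : ℝ) = n := by simp
  rw [hfr] at hφ hψ
  obtain ⟨z, -, hz⟩ := (isCompact_closedBall (0 : EuclideanSpace ℝ (Fin n)) 1).exists_isMaxOn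
    ⟨0, by simp⟩ hs.continuous_u.continuousOn
  obtain ⟨w, -, hw⟩ := (isCompact_closedBall (0 : EuclideanSpace ℝ (Fin n)) 1).exists_isMaxOn
    ⟨0, by simp⟩ hs.continuous_v.continuousOn
  have hmem : ∀ r : ℝ, 0 < r → r ≤ 1 → r • e ∈ Metric.closedBall (0 : EuclideanSpace ℝ (Fin n)) 1 := by
    intro r hr hr1
    simp [norm_smul, hen, abs_of_pos hr, hr1]
  refine Vale.Agent.P100.Rad.radial_core (N := n) (p := p) (q := q) (A := A) (B := B)
    (U := fun t => u (t • e)) (V := fun t => v (t • e)) (φ := φ) (ψ := ψ)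
    (M := max (u z) (v w)) (by exact_mod_cast hn3) hp hq h.2 h' hsub
    (fun r _ => hs.pos_u _) (fun r _ => hs.pos_v _)
    (fun r hr => (hφ r hr).1) (fun r hr => (hψ r hr).1)
    (fun r hr => (hφ r hr).2) (fun r hr => (hψ r hr).2) ?_ ?_
  · intro r hr hr1
    exact le_max_of_le_left (hz (hmem r hr hr1))
  · intro r hr hr1
    exact le_max_of_le_right (hw (hmem r hr hr1))

/-- **Henon-Lane-Emden conjecture for radial solutions.** For every `n ≥ 2`, all `p, q > 0` and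
all real weights `A, B` in the subcritical range, the system has no positive entire solution
one of whose components is radially symmetric. -/
theorem result (n : ℕ) (hn : 2 ≤ n) (p q A B : ℝ) (hp : 0 < p) (hq : 0 < q)
    (hsub : (n : ℝ) - 2 < (n + A) / (p + 1) + (n + B) / (q + 1)) :
    ¬ ∃ u v : EuclideanSpace ℝ (Fin n) → ℝ, IsPositiveEntireSolution n p q A B u v ∧
      (IsRadial u ∨ IsRadial v) := by
  rintro ⟨u, v, hs, hr⟩
  have hu' : ∀ x, x ≠ 0 → ContDiffAt ℝ 2 u x := fun x hx =>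
    (hs.contDiffOn_u x hx).contDiffAt (isOpen_compl_singleton.mem_nhds hx)
  have hv' : ∀ x, x ≠ 0 → ContDiffAt ℝ 2 v x := fun x hx =>
    (hs.contDiffOn_v x hx).contDiffAt (isOpen_compl_singleton.mem_nhds hx)
  set e : EuclideanSpace ℝ (Fin n) := EuclideanSpace.single ⟨0, by omega⟩ (1 : ℝ) with he
  have hen : ‖e‖ = 1 := by simp [he]
  rcases hr with hr | hr
  · exact aux n hn p q A B hp hq hsub u v hs hr
      (Vale.Agent.P100.Rad.radial_of_radial hp.ne' hu' hr hen hs.pos_v hs.eq_u)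
  · exact aux n hn p q A B hp hq hsub u v hs
      (Vale.Agent.P100.Rad.radial_of_radial hq.ne' hv' hr hen hs.pos_u hs.eq_v) hr

end Vale.Agent.Results.P100.Radial
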