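import Mathlib
import Vale.Agent.Lib.P100.Singular
import Vale.Agent.Lib.P100.Sup.Main
open Filter Topology InnerProductSpace Laplacian

namespace Vale.Agent.Results.P100.Supersolution

/-- `(u, v)` is a positive entire solution of the Henon-Lane-Emden system
`-Δ u = |x|^A v^p`, `-Δ v = |x|^B u^q` in `ℝ^n \ {0}`:
`u, v` are `C^2` on `ℝ^n \ {0}`, continuous on `ℝ^n`, positive everywhere, and
both equations hold at every `x ≠ 0`. -/
structure IsPositiveEntireSolution (n : ℕ) (p q A B : ℝ)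
    (u v : EuclideanSpace ℝ (Fin n) → ℝ) : Prop where
  contDiffOn_u : ContDiffOn ℝ 2 u {0}ᶜ
  contDiffOn_v : ContDiffOn ℝ 2 v {0}ᶜ
  continuous_u : Continuous u
  continuous_v : Continuous v
  pos_u : ∀ x, 0 < u x
  pos_v : ∀ x, 0 < v x
  eq_u : ∀ x, x ≠ 0 → -(Δ u x) = ‖x‖ ^ A * v x ^ p
  eq_v : ∀ x, x ≠ 0 → -(Δ v x) = ‖x‖ ^ B * u x ^ q

/-- `(u, v)` is a positive supersolution on the punctured space: `u, v` are `C^2` and positive on
`ℝ^n \ {0}` (nothing is assumed at the origin) and `-Δ u ≥ |x|^A v^p`, `-Δ v ≥ |x|^B u^q` there. -/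
structure IsPositivePuncturedSupersolution (n : ℕ) (p q A B : ℝ)
    (u v : EuclideanSpace ℝ (Fin n) → ℝ) : Prop where
  contDiffOn_u : ContDiffOn ℝ 2 u {0}ᶜ
  contDiffOn_v : ContDiffOn ℝ 2 v {0}ᶜ
  pos_u : ∀ x, x ≠ 0 → 0 < u x
  pos_v : ∀ x, x ≠ 0 → 0 < v x
  ineq_u : ∀ x, x ≠ 0 → ‖x‖ ^ A * v x ^ p ≤ -(Δ u x)
  ineq_v : ∀ x, x ≠ 0 → ‖x‖ ^ B * u x ^ q ≤ -(Δ v x)

/-- the region `pq ≤ 1`, or `pq > 1` and `max (α, β) ≥ n - 2`, where
`α = (2 + A + p (2 + B)) / (pq - 1)` and `β = (2 + B + q (2 + A)) / (pq - 1)` -/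
def Region (n : ℕ) (p q A B : ℝ) : Prop :=
  ((n : ℝ) - 2) * (p * q - 1) ≤ (2 + A) + p * (2 + B) ∨
    ((n : ℝ) - 2) * (p * q - 1) ≤ (2 + B) + q * (2 + A)

lemma punctured (n : ℕ) (hn : 3 ≤ n) (p q A B : ℝ) (hp : 0 < p) (hq : 0 < q)
    (hA : -2 < A) (hB : -2 < B) (hreg : Region n p q A B)
    (u v : EuclideanSpace ℝ (Fin n) → ℝ)
    (hs : IsPositivePuncturedSupersolution n p q A B u v) : False := by
  have hu' : ∀ x, x ≠ 0 → ContDiffAt ℝ 2 u x := fun x hx =>
    (hs.contDiffOn_u x hx).contDiffAt (isOpen_compl_singleton.mem_nhds hx)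
  have hv' : ∀ x, x ≠ 0 → ContDiffAt ℝ 2 v x := fun x hx =>
    (hs.contDiffOn_v x hx).contDiffAt (isOpen_compl_singleton.mem_nhds hx)
  have hfr : (Module.finrank ℝ (EuclideanSpace ℝ (Fin n)) : ℝ) = n := by simp
  exact Vale.Agent.P100.Sup.no_supersolution (E := EuclideanSpace ℝ (Fin n)) (by simpa using hn)
    hp hq hA hB (by rw [hfr]; exact hreg) hu' hv' hs.pos_u hs.pos_v hs.ineq_u hs.ineq_v

/-- **Nonexistence in the supersolution region.**
(1) For `n ≥ 3`, `p, q > 0`, `A, B > -2` in the region `pq ≤ 1` or `max (α, β) ≥ n - 2`, the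
Henon-Lane-Emden inequalities have no positive `C^2` supersolution on `ℝ^n \ {0}`.
(2) For `n ≥ 2`, `p, q > 0` and all real `A, B` in the same region, the Henon-Lane-Emden system
has no positive entire solution. -/
theorem result :
    (∀ (n : ℕ) (p q A B : ℝ), 3 ≤ n → 0 < p → 0 < q → -2 < A → -2 < B → Region n p q A B →
      ¬ ∃ u v : EuclideanSpace ℝ (Fin n) → ℝ, IsPositivePuncturedSupersolution n p q A B u v) ∧
    (∀ (n : ℕ) (p q A B : ℝ), 2 ≤ n → 0 < p → 0 < q → Region n p q A B →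
      ¬ ∃ u v : EuclideanSpace ℝ (Fin n) → ℝ, IsPositiveEntireSolution n p q A B u v) := by
  refine ⟨?_, ?_⟩
  · rintro n p q A B hn hp hq hA hB hreg ⟨u, v, hs⟩
    exact punctured n hn p q A B hp hq hA hB hreg u v hs
  · rintro n p q A B hn hp hq hreg ⟨u, v, hs⟩
    by_cases h : n = 2 ∨ A ≤ -2
    · exact Vale.Agent.P100.no_solution_plane_or_singular n hn p A h u v hs.contDiffOn_u
        hs.continuous_u hs.continuous_v hs.pos_u hs.pos_v hs.eq_u
    by_cases h' : B ≤ -2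
    · exact Vale.Agent.P100.no_solution_plane_or_singular n hn q B (Or.inr h') v u
        hs.contDiffOn_v hs.continuous_v hs.continuous_u hs.pos_v hs.pos_u hs.eq_v
    push Not at h h'
    have hn3 : 3 ≤ n := by
      have := h.1
      omega
    exact punctured n hn3 p q A B hp hq h.2 h' hreg u v
      { contDiffOn_u := hs.contDiffOn_u
        contDiffOn_v := hs.contDiffOn_v
        pos_u := fun x _ => hs.pos_u x
        pos_v := fun x _ => hs.pos_v x
        ineq_u := fun x hx => (hs.eq_u x hx).ge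
        ineq_v := fun x hx => (hs.eq_v x hx).ge }

end Vale.Agent.Results.P100.Supersolution
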